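import Vale.Agent.P183.Up.Basic

/-!
# Duals of representable lattices are representable

Let `(X, M)` be a finite unary algebra with congruence lattice `L` and let `T` be a nonabelian
finite simple group.  The subgroups of the power `X → T` containing the constant functions are
exactly the subgroups of functions constant on the classes of a partition of `X`.  On the set of
cosets of the constant functions, with the right translations and the precompositions by the maps
of `M` as operations, the congruences correspond to the partitions preserved by `M`, with the order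
reversed.  Here the cosets are given by their normal forms: the functions which are `1` at a base
point.
-/

namespace Vale.Agent.P183.Up

universe u

section separation

variable {X T : Type} [Group T]

/-- The subgroup of values at `y` of members of `K` which vanish on `S`. -/
def valueSubgroup (K : Subgroup (X → T)) (y : X) (S : Set X) : Subgroup T where
  carrier := {a | ∃ h ∈ K, h y = a ∧ ∀ s ∈ S, h s = 1}
  one_mem' := ⟨1, K.one_mem, rfl, fun _ _ => rfl⟩
  mul_mem' := by
    rintro a b ⟨h1, hK1, rfl, h1s⟩ ⟨h2, hK2, rfl, h2s⟩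
    exact ⟨h1 * h2, K.mul_mem hK1 hK2, rfl, fun s hs => by simp [h1s s hs, h2s s hs]⟩
  inv_mem' := by
    rintro a ⟨h1, hK1, rfl, h1s⟩
    exact ⟨h1⁻¹, K.inv_mem hK1, rfl, fun s hs => by simp [h1s s hs]⟩

/-- Two points separated by `K`: every value is attained at `y` by a member vanishing at `s`. -/
theorem value_of_separated [IsSimpleGroup T] (K : Subgroup (X → T))
    (hK : ∀ t : T, (fun _ => t) ∈ K) {y s : X} (hs : ∃ f ∈ K, f y ≠ f s) (t : T) :
    ∃ h ∈ K, h y = t ∧ h s = 1 := by
  have hn : (valueSubgroup K y {s}).Normal := by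
    refine ⟨?_⟩
    rintro a ⟨h, hh, rfl, h1⟩ c
    refine ⟨(fun _ => c) * h * (fun _ => c)⁻¹, K.mul_mem (K.mul_mem (hK c) hh) (K.inv_mem (hK c)),
      rfl, fun u hu => ?_⟩
    have := h1 u hu
    simp [this]
  have ht : valueSubgroup K y {s} = ⊤ := by
    refine hn.eq_bot_or_eq_top.resolve_left (fun hbot => ?_)
    obtain ⟨f, hf, hne⟩ := hs
    have hmem : (f s)⁻¹ * f y ∈ valueSubgroup K y {s} := by
      refine ⟨(fun _ => (f s)⁻¹) * f, K.mul_mem (hK _) hf, rfl, fun u hu => ?_⟩
      rw [Set.mem_singleton_iff] at hu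
      subst hu
      simp
    rw [hbot, Subgroup.mem_bot] at hmem
    apply hne
    rw [inv_mul_eq_one] at hmem
    exact hmem.symm
  have hmem : t ∈ valueSubgroup K y {s} := by rw [ht]; trivial
  obtain ⟨h, hh, h1, h2⟩ := hmem
  exact ⟨h, hh, h1, h2 s rfl⟩

/-- The commutator trick: every value is attained at `y` by a member vanishing on a finite set of
points separated from `y`. -/
theorem value_of_finset [IsSimpleGroup T] (hperf : commutator T = ⊤) (K : Subgroup (X → T))
    (hK : ∀ t : T, (fun _ => t) ∈ K) (y : X) (S : Finset X) (hS : ∀ s ∈ S, ∃ f ∈ K, f y ≠ f s)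
    (t : T) : ∃ h ∈ K, h y = t ∧ ∀ s ∈ S, h s = 1 := by
  classical
  induction S using Finset.induction_on generalizing t with
  | empty => exact ⟨fun _ => t, hK t, rfl, by simp⟩
  | insert s S _ ih =>
    have hle : commutator T ≤ valueSubgroup K y (↑(insert s S) : Set X) := by
      unfold commutator
      rw [Subgroup.commutator_le]
      intro a _ b _
      obtain ⟨h1, hh1, rfl, h1S⟩ := ih (fun u hu => hS u (Finset.mem_insert_of_mem hu)) a
      obtain ⟨h2, hh2, rfl, h2s⟩ := value_of_separated K hK (hS s (Finset.mem_insert_self s S)) b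
      refine ⟨h1 * h2 * h1⁻¹ * h2⁻¹, ?_, by simp [commutatorElement_def], fun u hu => ?_⟩
      · exact K.mul_mem (K.mul_mem (K.mul_mem hh1 hh2) (K.inv_mem hh1)) (K.inv_mem hh2)
      · have hu' : u = s ∨ u ∈ S := by simpa using hu
        rcases hu' with rfl | hu'
        · simp [h2s]
        · simp [h1S u hu']
    have hmem : t ∈ valueSubgroup K y (↑(insert s S) : Set X) := hle (by rw [hperf]; trivial)
    obtain ⟨h, hh, h1, h2⟩ := hmem
    exact ⟨h, hh, h1, fun u hu => h2 u (by simpa using hu)⟩

/-- The partition of `X` given by a subgroup of functions. -/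
def partOf (K : Subgroup (X → T)) : Setoid X where
  r x y := ∀ f ∈ K, f x = f y
  iseqv := ⟨fun _ _ _ => rfl, fun h f hf => (h f hf).symm, fun h1 h2 f hf =>
    (h1 f hf).trans (h2 f hf)⟩

/-- A subgroup of functions containing the constants consists of all functions constant on the
classes of its partition. -/
theorem mem_of_constOn [Finite X] [IsSimpleGroup T] (hperf : commutator T = ⊤)
    (K : Subgroup (X → T)) (hK : ∀ t : T, (fun _ => t) ∈ K) (f : X → T)
    (hf : ∀ x y, (partOf K) x y → f x = f y) : f ∈ K := by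
  classical
  have := Fintype.ofFinite X
  have key : ∀ S : Finset X, ∃ h ∈ K, ∀ x ∈ S, h x = f x := by
    intro S
    induction S using Finset.induction_on with
    | empty => exact ⟨1, K.one_mem, by simp⟩
    | insert y S _ ih =>
      obtain ⟨h, hh, hS⟩ := ih
      by_cases hy : ∃ s ∈ S, (partOf K) y s
      · obtain ⟨s, hs, hys⟩ := hy
        refine ⟨h, hh, fun x hx => ?_⟩
        have hx' : x = y ∨ x ∈ S := by simpa using hx
        rcases hx' with rfl | hx'
        · rw [hys h hh, hS s hs, hf _ _ hys]
        · exact hS x hx'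
      · push Not at hy
        have hsep : ∀ s ∈ S, ∃ g ∈ K, g y ≠ g s := by
          intro s hs
          have := hy s hs
          by_contra hcon
          push Not at hcon
          exact this hcon
        obtain ⟨h', hh', h1, h2⟩ := value_of_finset hperf K hK y S hsep ((h y)⁻¹ * f y)
        refine ⟨h * h', K.mul_mem hh hh', fun x hx => ?_⟩
        have hx' : x = y ∨ x ∈ S := by simpa using hx
        rcases hx' with rfl | hx'
        · simp [h1]
        · simp [h2 x hx', hS x hx']
  obtain ⟨h, hh, hS⟩ := key Finset.univ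
  have : h = f := funext fun x => hS x (Finset.mem_univ x)
  rwa [← this]

end separation

section dual

variable {X T : Type} [Group T] (x₀ : X)

/-- Normal forms of functions modulo the constants on the left: the value at the base point is `1`. -/
abbrev NF (X T : Type) [Group T] (x₀ : X) := {f : X → T // f x₀ = 1}

/-- The normal form of a function. -/
def nf (f : X → T) : NF X T x₀ := ⟨fun x => (f x₀)⁻¹ * f x, by simp⟩

theorem nf_val (f : NF X T x₀) : nf x₀ f.1 = f := by
  apply Subtype.ext
  funext x
  simp [nf, f.2]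

theorem nf_const_mul (c : T) (f : X → T) : nf x₀ (fun x => c * f x) = nf x₀ f := by
  apply Subtype.ext
  funext x
  simp [nf, mul_assoc]

/-- The level of a partition on the normal forms. -/
def levNF (π : Setoid X) : Setoid (NF X T x₀) where
  r f g := ∀ x y, π x y → f.1 x * (g.1 x)⁻¹ = f.1 y * (g.1 y)⁻¹
  iseqv := by
    refine ⟨fun f x y _ => by simp, fun {f g} h x y hxy => ?_, fun {f g k} h1 h2 x y hxy => ?_⟩
    · have := h x y hxy
      have h3 := congrArg (fun a => a⁻¹) this
      simpa using h3
    · have e1 := h1 x y hxy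
      have e2 := h2 x y hxy
      calc f.1 x * (k.1 x)⁻¹ = (f.1 x * (g.1 x)⁻¹) * (g.1 x * (k.1 x)⁻¹) := by group
        _ = (f.1 y * (g.1 y)⁻¹) * (g.1 y * (k.1 y)⁻¹) := by rw [e1, e2]
        _ = f.1 y * (k.1 y)⁻¹ := by group

/-- The right translation by `h`. -/
def transR (h : X → T) (f : NF X T x₀) : NF X T x₀ := nf x₀ (fun x => f.1 x * h x)

/-- The precomposition by `m`. -/
def precomp (m : X → X) (f : NF X T x₀) : NF X T x₀ := nf x₀ (fun x => f.1 (m x))

theorem transR_nf (h f : X → T) : transR x₀ h (nf x₀ f) = nf x₀ (fun x => f x * h x) := by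
  unfold transR nf
  apply Subtype.ext
  funext x
  simp [mul_assoc]

theorem precomp_nf (m : X → X) (f : X → T) : precomp x₀ m (nf x₀ f) = nf x₀ (fun x => f (m x)) := by
  unfold precomp nf
  apply Subtype.ext
  funext x
  simp [mul_assoc]

theorem levNF_transR (π : Setoid X) (h : X → T) {f g : NF X T x₀} (hfg : levNF x₀ π f g) :
    levNF x₀ π (transR x₀ h f) (transR x₀ h g) := by
  intro x y hxy
  have e := hfg x y hxy
  simp only [transR, nf, f.2, g.2, one_mul]
  calc (h x₀)⁻¹ * (f.1 x * h x) * ((h x₀)⁻¹ * (g.1 x * h x))⁻¹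
      = (h x₀)⁻¹ * (f.1 x * (g.1 x)⁻¹) * h x₀ := by group
    _ = (h x₀)⁻¹ * (f.1 y * (g.1 y)⁻¹) * h x₀ := by rw [e]
    _ = (h x₀)⁻¹ * (f.1 y * h y) * ((h x₀)⁻¹ * (g.1 y * h y))⁻¹ := by group

theorem levNF_precomp (π : Setoid X) (m : X → X) (hm : ∀ x y, π x y → π (m x) (m y))
    {f g : NF X T x₀} (hfg : levNF x₀ π f g) :
    levNF x₀ π (precomp x₀ m f) (precomp x₀ m g) := by
  intro x y hxy
  have e := hfg (m x) (m y) (hm x y hxy)
  simp only [precomp, nf]
  calc (f.1 (m x₀))⁻¹ * f.1 (m x) * ((g.1 (m x₀))⁻¹ * g.1 (m x))⁻¹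
      = (f.1 (m x₀))⁻¹ * (f.1 (m x) * (g.1 (m x))⁻¹) * g.1 (m x₀) := by group
    _ = (f.1 (m x₀))⁻¹ * (f.1 (m y) * (g.1 (m y))⁻¹) * g.1 (m x₀) := by rw [e]
    _ = (f.1 (m x₀))⁻¹ * f.1 (m y) * ((g.1 (m x₀))⁻¹ * g.1 (m y))⁻¹ := by group

/-- The levels reverse the order. -/
theorem levNF_le_iff [Nontrivial T] (π ρ : Setoid X) :
    levNF (T := T) x₀ π ≤ levNF x₀ ρ ↔ ρ ≤ π := by
  classical
  constructor
  · intro h x y hxy
    by_contra hn
    obtain ⟨u, hu⟩ := exists_ne (1 : T)
    let f0 : X → T := fun z => if π x z then u else 1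
    have hf0 : ∀ a b, π a b → f0 a = f0 b := by
      intro a b hab
      have : π x a ↔ π x b :=
        ⟨fun h1 => π.trans' h1 hab, fun h1 => π.trans' h1 (π.symm' hab)⟩
      simp only [f0, this]
    have h1 : levNF (T := T) x₀ π (nf x₀ f0) (nf x₀ 1) := by
      intro a b hab
      simp [nf, hf0 a b hab]
    have h2 := h h1 x y hxy
    simp only [nf, Pi.one_apply, inv_one, mul_one] at h2
    have h3 : f0 x = f0 y := mul_left_cancel h2
    have h4 : f0 x = u := by simp only [f0]; rw [if_pos (π.refl' x)]
    have h5 : f0 y = 1 := by simp only [f0]; rw [if_neg hn]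
    rw [h4, h5] at h3
    exact hu h3
  · intro h f g hfg x y hxy
    exact hfg x y (h hxy)

/-- The subgroup of a closed setoid. -/
def subOf (θ : Setoid (NF X T x₀))
    (hR : ∀ h : X → T, ∀ f g, θ f g → θ (transR x₀ h f) (transR x₀ h g)) : Subgroup (X → T) where
  carrier := {f | θ (nf x₀ f) (nf x₀ 1)}
  one_mem' := θ.refl' _
  mul_mem' := by
    intro f g hf hg
    have h1 := hR g _ _ hf
    rw [transR_nf, transR_nf] at h1
    have h2 : nf x₀ (fun x => (1 : X → T) x * g x) = nf x₀ g := by
      congr 1
      funext x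
      simp
    rw [h2] at h1
    exact θ.trans' h1 hg
  inv_mem' := by
    intro f hf
    have h1 := hR f⁻¹ _ _ hf
    rw [transR_nf, transR_nf] at h1
    have h2 : nf x₀ (fun x => f x * f⁻¹ x) = nf x₀ 1 := by
      congr 1
      funext x
      simp
    have h3 : nf x₀ (fun x => (1 : X → T) x * f⁻¹ x) = nf x₀ f⁻¹ := by
      congr 1
      funext x
      simp
    rw [h2, h3] at h1
    exact θ.symm' h1

end dual

/-- The alternating group on five letters is perfect. -/
theorem commutator_alt5 : commutator (alternatingGroup (Fin 5)) = ⊤ := by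
  have hsimple : IsSimpleGroup (alternatingGroup (Fin 5)) :=
    alternatingGroup.isSimpleGroup (by simp)
  refine (inferInstance : (commutator (alternatingGroup (Fin 5))).Normal).eq_bot_or_eq_top.resolve_left
    (fun hbot => ?_)
  let c1 : Equiv.Perm (Fin 5) := Equiv.swap 0 1 * Equiv.swap 1 2
  let c2 : Equiv.Perm (Fin 5) := Equiv.swap 1 2 * Equiv.swap 2 3
  have h1 : c1 ∈ alternatingGroup (Fin 5) := by
    rw [Equiv.Perm.mem_alternatingGroup]
    decide
  have h2 : c2 ∈ alternatingGroup (Fin 5) := by
    rw [Equiv.Perm.mem_alternatingGroup]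
    decide
  rw [commutator_eq_bot_iff_center_eq_top] at hbot
  have h3 : (⟨c2, h2⟩ : alternatingGroup (Fin 5)) ∈ Subgroup.center (alternatingGroup (Fin 5)) := by
    rw [hbot]
    trivial
  have h4 := Subgroup.mem_center_iff.1 h3 ⟨c1, h1⟩
  have h5 : c1 * c2 = c2 * c1 := congrArg Subtype.val h4
  exact absurd h5 (by decide)

/-- The dual of a representable partial order is representable. -/
theorem Representable.dual {L : Type u} [PartialOrder L] (hL : Representable L) :
    Representable Lᵒᵈ := by
  classical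
  obtain ⟨X, hX, hX', φ, h1, h2⟩ := exists_levels hL
  obtain ⟨x₀⟩ := hX'
  let T := alternatingGroup (Fin 5)
  have hsimple : IsSimpleGroup T := alternatingGroup.isSimpleGroup (by simp)
  have hperf : commutator T = ⊤ := commutator_alt5
  let lev : Lᵒᵈ → Setoid (NF X T x₀) := fun t => levNF x₀ (φ (OrderDual.ofDual t))
  have : Nonempty (NF X T x₀) := ⟨nf x₀ 1⟩
  refine representable_of_levels lev (fun s t => ?_) (fun θ hθ => ?_)
  · show levNF x₀ (φ (OrderDual.ofDual s)) ≤ levNF x₀ (φ (OrderDual.ofDual t)) ↔ s ≤ t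
    rw [levNF_le_iff, h1]
    exact Iff.rfl
  · have hR : ∀ (h : X → T) (f g : NF X T x₀), θ f g → θ (transR x₀ h f) (transR x₀ h g) :=
      fun h f g hfg => hθ _ (fun t a b hab => levNF_transR x₀ _ h hab) _ _ hfg
    have hP : ∀ m : X → X, IsMor φ m → ∀ f g : NF X T x₀, θ f g →
        θ (precomp x₀ m f) (precomp x₀ m g) :=
      fun m hm f g hfg => hθ _ (fun t a b hab => levNF_precomp x₀ _ m (hm _) hab) _ _ hfg
    let K := subOf x₀ θ hR
    have hK : ∀ t : T, (fun _ => t) ∈ K := by
      intro t
      show θ (nf x₀ (fun _ => t)) (nf x₀ 1)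
      have : nf x₀ (fun _ : X => t) = nf x₀ (1 : X → T) := by
        have := nf_const_mul x₀ t (1 : X → T)
        simpa using this
      rw [this]
    have hπ : IsClosed φ (partOf K) := by
      intro m hm x y hxy f hf
      have h3 := hP m hm _ _ hf
      rw [precomp_nf, precomp_nf] at h3
      exact hxy (fun x => f (m x)) h3
    obtain ⟨t, ht⟩ := h2 _ hπ
    refine ⟨OrderDual.toDual t, ?_⟩
    show θ = levNF x₀ (φ t)
    rw [← ht]
    ext f g
    constructor
    · intro hfg a b hab
      have h3 := hR (fun x => (g.1 x)⁻¹) _ _ hfg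
      have h4 : (fun x => f.1 x * (g.1 x)⁻¹) ∈ K := by
        show θ (nf x₀ _) (nf x₀ 1)
        have h5 : transR x₀ (fun x => (g.1 x)⁻¹) g = nf x₀ 1 := by
          unfold transR
          congr 1
          funext x
          simp
        rw [h5] at h3
        exact h3
      exact hab _ h4
    · intro hfg
      have hmem : (fun x => f.1 x * (g.1 x)⁻¹) ∈ K :=
        mem_of_constOn hperf K hK _ (fun a b hab => hfg a b hab)
      have h3 := hR g.1 _ _ hmem
      rw [transR_nf, transR_nf] at h3
      have h4 : nf x₀ (fun x => f.1 x * (g.1 x)⁻¹ * g.1 x) = f := by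
        have : (fun x => f.1 x * (g.1 x)⁻¹ * g.1 x) = f.1 := by
          funext x
          simp
        rw [this, nf_val]
      have h5 : nf x₀ (fun x => (1 : X → T) x * g.1 x) = g := by
        have : (fun x => (1 : X → T) x * g.1 x) = g.1 := by
          funext x
          simp
        rw [this, nf_val]
      rw [h4, h5] at h3
      exact h3

end Vale.Agent.P183.Up
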