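import Vale.Agent.P183.Dual.Basic
import Vale.Agent.P183.Cut.Basic
import Vale.Agent.P183.Up.Main
import Vale.Agent.P183.Main

/-!
# Closure properties of the representable partial orders
-/

namespace Vale.Agent.P183.Up

universe u v

/-- Representability of a partial order and of its dual are equivalent. -/
theorem representable_dual_iff {L : Type u} [PartialOrder L] :
    Representable Lᵒᵈ ↔ Representable L := by
  constructor
  · intro h
    have h2 : Representable Lᵒᵈᵒᵈ := Representable.dual h
    exact Representable.of_orderIso (OrderIso.dualDual L) h2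
  · exact fun h => Representable.dual h

/-- Every finite upper bounded lattice is representable. -/
theorem representable_of_dual_lowerBounded (L : Type u) [Lattice L] [Finite L] [Nonempty L]
    (h : IsLowerBounded Lᵒᵈ) : Representable L :=
  representable_dual_iff.1 (representable_of_isLowerBounded Lᵒᵈ h)

/-- The class of representable partial orders is closed under doubling a down-set. -/
theorem representable_down {L : Type u} [PartialOrder L] (D : Set L) (hD : IsLowerSet D)
    (h : Representable L) : Representable {p : L × Bool // p.2 = false → p.1 ∈ D} := by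
  have h1 : Representable Lᵒᵈ := Representable.dual h
  have hU : IsUpperSet (OrderDual.ofDual ⁻¹' D : Set Lᵒᵈ) := by
    intro a b hab ha
    exact hD hab ha
  have h2 := representable_up (OrderDual.ofDual ⁻¹' D : Set Lᵒᵈ) hU h1
  have h3 := Representable.dual h2
  refine Representable.of_orderIso ?_ h3
  refine
    { toFun := fun p => OrderDual.toDual ⟨(OrderDual.toDual p.1.1, !p.1.2), fun hq => p.2 (by simpa using hq)⟩
      invFun := fun q => ⟨(OrderDual.ofDual (OrderDual.ofDual q).1.1, !(OrderDual.ofDual q).1.2),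
        fun hq => (OrderDual.ofDual q).2 (by simpa using hq)⟩
      left_inv := fun p => by simp
      right_inv := fun q => by simp
      map_rel_iff' := ?_ }
  rintro ⟨⟨x, c⟩, ha⟩ ⟨⟨y, d⟩, hb⟩
  show ((OrderDual.toDual y, !d) : Lᵒᵈ × Bool) ≤ (OrderDual.toDual x, !c) ↔ (x, c) ≤ (y, d)
  rw [Prod.mk_le_mk, Prod.mk_le_mk, OrderDual.toDual_le_toDual]
  cases c <;> cases d <;> simp

/-- Up-sets generated by an element: the interval above `a` is representable. -/
theorem representable_Ici {L : Type u} [PartialOrder L] (a : L) (h : Representable L) :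
    Representable {x : L // a ≤ x} := by
  classical
  obtain ⟨A, hA, hA', φ, h1, h2⟩ := exists_levels h
  let X := Quotient (φ a)
  let q : A → X := Quotient.mk (φ a)
  have hq : ∀ x y, q x = q y ↔ φ a x y := fun x y => Quotient.eq (r := φ a)
  have hqs : Function.Surjective q := Quotient.mk_surjective
  let pull (θ : Setoid X) : Setoid A := Setoid.comap q θ
  have hmono : ∀ s t : L, s ≤ t → φ s ≤ φ t := fun s t hst => (h1 s t).2 hst
  -- the level of `t ≥ a` on the quotient
  let lev : {x : L // a ≤ x} → Setoid X := fun t =>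
    { r := fun u v => ∃ x y, q x = u ∧ q y = v ∧ φ t.1 x y
      iseqv := by
        refine ⟨fun u => ?_, ?_, ?_⟩
        · obtain ⟨x, rfl⟩ := hqs u
          exact ⟨x, x, rfl, rfl, (φ t.1).refl' x⟩
        · rintro u v ⟨x, y, rfl, rfl, hxy⟩
          exact ⟨y, x, rfl, rfl, (φ t.1).symm' hxy⟩
        · rintro u v w ⟨x, y, rfl, hv, hxy⟩ ⟨y', z, hv', rfl, hyz⟩
          have h3 : φ a y y' := (hq y y').1 (hv.trans hv'.symm)
          exact ⟨x, z, rfl, rfl, (φ t.1).trans' hxy ((φ t.1).trans' (hmono _ _ t.2 h3) hyz)⟩ }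
  have hlev : ∀ (t : {x : L // a ≤ x}) (x y : A), lev t (q x) (q y) ↔ φ t.1 x y := by
    intro t x y
    constructor
    · rintro ⟨x', y', hx, hy, hxy⟩
      have h3 : φ a x x' := (hq x x').1 hx.symm
      have h4 : φ a y' y := (hq y' y).1 hy
      exact (φ t.1).trans' (hmono _ _ t.2 h3) ((φ t.1).trans' hxy (hmono _ _ t.2 h4))
    · exact fun hxy => ⟨x, y, rfl, rfl, hxy⟩
  have : Finite X := Quotient.finite _
  have : Nonempty X := ⟨q (Classical.arbitrary A)⟩
  refine representable_of_levels lev (fun s t => ?_) (fun θ hθ => ?_)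
  · constructor
    · intro hst
      have : φ s.1 ≤ φ t.1 := by
        intro x y hxy
        exact (hlev t x y).1 (hst ((hlev s x y).2 hxy))
      exact (h1 _ _).1 this
    · intro hst u v huv
      obtain ⟨x, rfl⟩ := hqs u
      obtain ⟨y, rfl⟩ := hqs v
      exact (hlev t x y).2 (hmono _ _ hst ((hlev s x y).1 huv))
  · -- the pull back is closed
    have hcl : IsClosed φ (pull θ) := by
      intro f hf x y hxy
      -- `f` descends to the quotient
      let g : X → X := Quotient.lift (fun z => q (f z)) (fun z w hzw =>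
        (hq _ _).2 (hf a z w hzw))
      have hg : IsMor lev g := by
        intro t u v huv
        obtain ⟨x, rfl⟩ := hqs u
        obtain ⟨y, rfl⟩ := hqs v
        have : φ t.1 x y := (hlev t x y).1 huv
        exact (hlev t (f x) (f y)).2 (hf t.1 x y this)
      exact hθ g hg (q x) (q y) hxy
    obtain ⟨t, ht⟩ := h2 _ hcl
    have hat : a ≤ t := by
      rw [← h1]
      intro x y hxy
      have : pull θ x y := by
        show θ (q x) (q y)
        rw [(hq x y).2 hxy]
      rw [ht] at this
      exact this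
    refine ⟨⟨t, hat⟩, ?_⟩
    ext u v
    obtain ⟨x, rfl⟩ := hqs u
    obtain ⟨y, rfl⟩ := hqs v
    rw [hlev]
    show pull θ x y ↔ _
    rw [ht]

/-- The interval below `b` is representable. -/
theorem representable_Iic {L : Type u} [PartialOrder L] (b : L) (h : Representable L) :
    Representable {x : L // x ≤ b} := by
  have h1 := representable_Ici (OrderDual.toDual b) (Representable.dual h)
  have h2 := Representable.dual h1
  refine Representable.of_orderIso ?_ h2
  exact
    { toFun := fun p => OrderDual.toDual ⟨OrderDual.toDual p.1, p.2⟩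
      invFun := fun q => ⟨OrderDual.ofDual (OrderDual.ofDual q).1, (OrderDual.ofDual q).2⟩
      left_inv := fun p => rfl
      right_inv := fun q => rfl
      map_rel_iff' := by
        intro p q
        exact Iff.rfl }

/-- Every interval of a representable partial order is representable. -/
theorem representable_Icc {L : Type u} [PartialOrder L] (a b : L) (hab : a ≤ b)
    (h : Representable L) : Representable {x : L // a ≤ x ∧ x ≤ b} := by
  have h1 := representable_Iic (⟨b, hab⟩ : {x : L // a ≤ x}) (representable_Ici a h)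
  refine Representable.of_orderIso ?_ h1
  exact
    { toFun := fun p => ⟨⟨p.1, p.2.1⟩, p.2.2⟩
      invFun := fun q => ⟨q.1.1, q.1.2, q.2⟩
      left_inv := fun p => rfl
      right_inv := fun q => rfl
      map_rel_iff' := by
        intro p q
        exact Iff.rfl }

/-- The direct product of two representable partial orders is representable. -/
theorem representable_prod {L₁ : Type u} {L₂ : Type v} [PartialOrder L₁] [PartialOrder L₂]
    (h₁ : Representable L₁) (h₂ : Representable L₂) : Representable (L₁ × L₂) := by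
  classical
  obtain ⟨A, hA, hA', φ, h1, h2⟩ := exists_levels h₁
  obtain ⟨B, hB, hB', ψ, h3, h4⟩ := exists_levels h₂
  obtain ⟨a₀⟩ := hA'
  obtain ⟨b₀⟩ := hB'
  let lev : L₁ × L₂ → Setoid (A × B) := fun t =>
    { r := fun p q => φ t.1 p.1 q.1 ∧ ψ t.2 p.2 q.2
      iseqv := ⟨fun p => ⟨(φ t.1).refl' _, (ψ t.2).refl' _⟩,
        fun h => ⟨(φ t.1).symm' h.1, (ψ t.2).symm' h.2⟩,
        fun h k => ⟨(φ t.1).trans' h.1 k.1, (ψ t.2).trans' h.2 k.2⟩⟩ }
  have : Nonempty (A × B) := ⟨(a₀, b₀)⟩
  refine representable_of_levels lev (fun s t => ?_) (fun θ hθ => ?_)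
  · constructor
    · intro hst
      refine ⟨(h1 _ _).1 fun x y hxy => ?_, (h3 _ _).1 fun x y hxy => ?_⟩
      · exact (hst (x := (x, b₀)) (y := (y, b₀)) ⟨hxy, (ψ s.2).refl' _⟩).1
      · exact (hst (x := (a₀, x)) (y := (a₀, y)) ⟨(φ s.1).refl' _, hxy⟩).2
    · intro hst p q hpq
      exact ⟨(h1 _ _).2 hst.1 hpq.1, (h3 _ _).2 hst.2 hpq.2⟩
  · -- the maps
    have hprod : ∀ f g, IsMor φ f → IsMor ψ g → IsMor lev (fun p : A × B => (f p.1, g p.2)) :=
      fun f g hf hg t p q hpq => ⟨hf t.1 _ _ hpq.1, hg t.2 _ _ hpq.2⟩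
    have hcA : ∀ a, IsMor φ (fun _ : A => a) := fun a t _ _ _ => (φ t).refl' a
    have hcB : ∀ b, IsMor ψ (fun _ : B => b) := fun b t _ _ _ => (ψ t).refl' b
    have hiA : IsMor φ (id : A → A) := fun t _ _ h => h
    have hiB : IsMor ψ (id : B → B) := fun t _ _ h => h
    let θ₁ : Setoid A := Setoid.comap (fun x => (x, b₀)) θ
    let θ₂ : Setoid B := Setoid.comap (fun y => (a₀, y)) θ
    have hc1 : IsClosed φ θ₁ := by
      intro f hf x y hxy
      exact hθ _ (hprod f id hf hiB) _ _ hxy
    have hc2 : IsClosed ψ θ₂ := by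
      intro g hg x y hxy
      exact hθ _ (hprod id g hiA hg) _ _ hxy
    obtain ⟨s, hs⟩ := h2 _ hc1
    obtain ⟨t, ht⟩ := h4 _ hc2
    refine ⟨(s, t), ?_⟩
    ext p q
    constructor
    · intro hpq
      have e1 : θ₁ p.1 q.1 := hθ _ (hprod id (fun _ => b₀) hiA (hcB b₀)) _ _ hpq
      have e2 : θ₂ p.2 q.2 := hθ _ (hprod (fun _ => a₀) id (hcA a₀) hiB) _ _ hpq
      rw [hs] at e1
      rw [ht] at e2
      exact ⟨e1, e2⟩
    · rintro ⟨e1, e2⟩
      have e1' : θ₁ p.1 q.1 := by rw [hs]; exact e1
      have e2' : θ₂ p.2 q.2 := by rw [ht]; exact e2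
      -- move the second coordinate
      have m1 : θ (p.1, p.2) (q.1, p.2) :=
        hθ (fun r => (r.1, p.2)) (hprod id (fun _ => p.2) hiA (hcB p.2)) (p.1, b₀) (q.1, b₀) e1'
      have m2 : θ (q.1, p.2) (q.1, q.2) :=
        hθ (fun r => (q.1, r.2)) (hprod (fun _ => q.1) id (hcA q.1) hiB) (a₀, p.2) (a₀, q.2) e2'
      exact θ.trans' m1 m2

end Vale.Agent.P183.Up
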